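import Mathlib.Analysis.Calculus.FDeriv.Symmetric
import Mathlib.Analysis.Calculus.ContDiff.Operations
import Mathlib.Analysis.Calculus.ContDiff.FiniteDimension
import Mathlib.Analysis.Calculus.BumpFunction.FiniteDimension
import Mathlib.Analysis.Normed.Module.FiniteDimension
import Mathlib.Analysis.SpecialFunctions.Log.Deriv
import Mathlib.Tactic

/-! Second order calculus for the logarithmic gradient estimate. -/

open Filter Topology Metric Set
open scoped ContDiff

namespace Vale.Agent.P299.H588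

section calculus

variable {E : Type*} [NormedAddCommGroup E] [NormedSpace ℝ E]

lemma hasFDerivAt_of_cd {F : Type*} [NormedAddCommGroup F] [NormedSpace ℝ F] {u : E → F} {z : E}
    (hu : ContDiffAt ℝ 1 u z) : HasFDerivAt u (fderiv ℝ u z) z :=
  (hu.differentiableAt (by norm_num)).hasFDerivAt

lemma cd_fderiv {F : Type*} [NormedAddCommGroup F] [NormedSpace ℝ F] {u : E → F} {z : E} {n : ℕ}
    (hu : ContDiffAt ℝ ((n : ℕ) + 1) u z) : ContDiffAt ℝ n (fderiv ℝ u) z :=
  hu.fderiv_right le_rfl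

/-- product rule, second order -/
lemma fderiv2_mul {u v : E → ℝ} {z : E} (hu : ContDiffAt ℝ 2 u z) (hv : ContDiffAt ℝ 2 v z) :
    fderiv ℝ (fderiv ℝ (fun y => u y * v y)) z
      = u z • fderiv ℝ (fderiv ℝ v) z + v z • fderiv ℝ (fderiv ℝ u) z
        + (fderiv ℝ u z).smulRight (fderiv ℝ v z) + (fderiv ℝ v z).smulRight (fderiv ℝ u z) := by
  have hev : ∀ᶠ y in 𝓝 z, ContDiffAt ℝ 2 u y ∧ ContDiffAt ℝ 2 v y :=
    (hu.eventually (by simp)).and (hv.eventually (by simp))
  have h1 : fderiv ℝ (fun y => u y * v y) =ᶠ[𝓝 z]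
      fun y => u y • fderiv ℝ v y + v y • fderiv ℝ u y := by
    filter_upwards [hev] with y hy
    exact fderiv_fun_mul (hy.1.differentiableAt (by norm_num))
      (hy.2.differentiableAt (by norm_num))
  rw [h1.fderiv_eq]
  have du : HasFDerivAt u (fderiv ℝ u z) z := hasFDerivAt_of_cd (hu.of_le (by norm_num))
  have dv : HasFDerivAt v (fderiv ℝ v z) z := hasFDerivAt_of_cd (hv.of_le (by norm_num))
  have ddu : HasFDerivAt (fderiv ℝ u) (fderiv ℝ (fderiv ℝ u) z) z :=
    hasFDerivAt_of_cd (cd_fderiv (n := 1) (by exact_mod_cast hu))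
  have ddv : HasFDerivAt (fderiv ℝ v) (fderiv ℝ (fderiv ℝ v) z) z :=
    hasFDerivAt_of_cd (cd_fderiv (n := 1) (by exact_mod_cast hv))
  have h2 : HasFDerivAt (fun y => u y • fderiv ℝ v y + v y • fderiv ℝ u y)
      ((u z • fderiv ℝ (fderiv ℝ v) z + (fderiv ℝ u z).smulRight (fderiv ℝ v z))
        + (v z • fderiv ℝ (fderiv ℝ u) z + (fderiv ℝ v z).smulRight (fderiv ℝ u z))) z :=
    (du.smul ddv).add (dv.smul ddu)
  rw [h2.fderiv]
  abel

/-- second derivative of a finite sum -/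
lemma fderiv2_sum {ι : Type*} (s : Finset ι) {f : ι → E → ℝ} {z : E}
    (hf : ∀ i ∈ s, ContDiffAt ℝ 2 (f i) z) :
    fderiv ℝ (fderiv ℝ (fun y => ∑ i ∈ s, f i y)) z
      = ∑ i ∈ s, fderiv ℝ (fderiv ℝ (f i)) z := by
  have hev : ∀ᶠ y in 𝓝 z, ∀ i ∈ s, ContDiffAt ℝ 2 (f i) y :=
    (Finset.eventually_all s).2 fun i hi => (hf i hi).eventually (by simp)
  have h1 : fderiv ℝ (fun y => ∑ i ∈ s, f i y) =ᶠ[𝓝 z] fun y => ∑ i ∈ s, fderiv ℝ (f i) y := by
    filter_upwards [hev] with y hy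
    exact fderiv_fun_sum fun i hi => (hy i hi).differentiableAt (by norm_num)
  rw [h1.fderiv_eq]
  exact fderiv_fun_sum fun i hi =>
    (cd_fderiv (n := 1) (by exact_mod_cast hf i hi)).differentiableAt (by norm_num)

/-- the derivative of a partial derivative -/
lemma fderiv_partial {v : E → ℝ} {z : E} (hv : ContDiffAt ℝ 2 v z) (e : E) :
    fderiv ℝ (fun y => fderiv ℝ v y e) z = fderiv ℝ (fderiv ℝ v) z e := by
  have ddv : HasFDerivAt (fderiv ℝ v) (fderiv ℝ (fderiv ℝ v) z) z :=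
    hasFDerivAt_of_cd (cd_fderiv (n := 1) (by exact_mod_cast hv))
  have h1 := ddv.clm_apply (hasFDerivAt_const e z)
  rw [h1.fderiv]
  ext x
  have hs := hv.isSymmSndFDerivAt (by simp)
  simpa using hs x e

/-- the second derivative of a partial derivative -/
lemma fderiv2_partial {v : E → ℝ} {z : E} (hv : ContDiffAt ℝ 3 v z) (e : E) :
    fderiv ℝ (fderiv ℝ (fun y => fderiv ℝ v y e)) z
      = fderiv ℝ (fderiv ℝ (fderiv ℝ v)) z e := by
  have hev : ∀ᶠ y in 𝓝 z, ContDiffAt ℝ 3 v y := hv.eventually (by simp)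
  have h0 : fderiv ℝ (fun y => fderiv ℝ v y e) =ᶠ[𝓝 z] fun y => fderiv ℝ (fderiv ℝ v) y e := by
    filter_upwards [hev] with y hy
    exact fderiv_partial (hy.of_le (by norm_num)) e
  rw [h0.fderiv_eq]
  have hv2 : ContDiffAt ℝ 2 (fderiv ℝ v) z := cd_fderiv (n := 2) (by exact_mod_cast hv)
  have ddv : HasFDerivAt (fderiv ℝ (fderiv ℝ v)) (fderiv ℝ (fderiv ℝ (fderiv ℝ v)) z) z :=
    hasFDerivAt_of_cd (cd_fderiv (n := 1) (by exact_mod_cast hv2))
  have h1 := ddv.clm_apply (hasFDerivAt_const e z)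
  rw [h1.fderiv]
  ext x : 1
  have hs := hv2.isSymmSndFDerivAt (by simp)
  simpa using hs x e

end calculus

end Vale.Agent.P299.H588
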