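import Vale.Agent.P299.H588.Calc

/-! The algebra of the logarithmic gradient estimate at an interior maximum. -/

open Filter Topology Metric Set
open scoped ContDiff

set_option maxSynthPendingDepth 3
set_option linter.unusedVariables false

namespace Vale.Agent.P299.H588

/-- the scalar inequality -/
lemma scalar_bound {lam L l κ A g y : ℝ} (hlam : 0 < lam) (hL : 0 < L) (hl : 0 ≤ l) (hκ : 0 < κ)
    (hA : 0 ≤ A) (hg : 0 ≤ g) (hy : 0 ≤ y) (h1 : κ * y ^ 2 ≤ A * (g ^ 3 + g * y + g ^ 2))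
    (h2 : lam * g ^ 2 ≤ l + L * y) :
    g ≤ 1 + 2 * l / lam + 8 * (2 * A + A ^ 2 / (2 * κ)) * L ^ 2 / (κ * lam ^ 2) := by
  by_contra hcon
  push Not at hcon
  set A₁ : ℝ := 2 * A + A ^ 2 / (2 * κ) with hA₁
  have hA₁0 : 0 ≤ A₁ := by positivity
  have p1 : 0 ≤ 2 * l / lam := by positivity
  have p2 : 0 ≤ 8 * A₁ * L ^ 2 / (κ * lam ^ 2) := by positivity
  have g1 : 1 < g := by linarith
  have g2 : 2 * l / lam < g := by linarith
  have g3 : 8 * A₁ * L ^ 2 / (κ * lam ^ 2) < g := by linarith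
  have hg2 : g ≤ g ^ 2 := by nlinarith
  -- absorb
  have h3 : κ / 2 * y ^ 2 ≤ A₁ * g ^ 3 := by
    have e1 : A * (g * y) ≤ κ / 2 * y ^ 2 + A ^ 2 / (2 * κ) * g ^ 2 := by
      have h := sq_nonneg (κ * y - A * g)
      have e : κ / 2 * y ^ 2 + A ^ 2 / (2 * κ) * g ^ 2 - A * (g * y)
          = (κ * y - A * g) ^ 2 / (2 * κ) := by field_simp; ring
      have : 0 ≤ (κ * y - A * g) ^ 2 / (2 * κ) := by positivity
      linarith
    have e2 : g ^ 2 ≤ g ^ 3 := by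
      have : g ^ 3 = g ^ 2 * g := by ring
      nlinarith [sq_nonneg g]
    have e3 : A * g ^ 2 ≤ A * g ^ 3 := mul_le_mul_of_nonneg_left e2 hA
    have e4 : A ^ 2 / (2 * κ) * g ^ 2 ≤ A ^ 2 / (2 * κ) * g ^ 3 :=
      mul_le_mul_of_nonneg_left e2 (by positivity)
    have e5 : A₁ * g ^ 3 = 2 * (A * g ^ 3) + A ^ 2 / (2 * κ) * g ^ 3 := by rw [hA₁]; ring
    rw [e5]
    have e6 : A * (g ^ 3 + g * y + g ^ 2) = A * g ^ 3 + A * (g * y) + A * g ^ 2 := by ring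
    linarith
  have h4 : lam * g ^ 2 / 2 ≤ L * y := by
    have : 2 * l ≤ lam * g ^ 2 := by
      rw [div_lt_iff₀ hlam] at g2
      nlinarith
    linarith
  have h5 : (lam * g ^ 2 / 2) ^ 2 ≤ (L * y) ^ 2 := by
    have : 0 ≤ lam * g ^ 2 / 2 := by positivity
    gcongr
  have h6 : κ * lam ^ 2 * g ≤ 8 * A₁ * L ^ 2 := by
    have e1 : κ / 2 * (lam * g ^ 2 / 2) ^ 2 ≤ L ^ 2 * (A₁ * g ^ 3) := by
      calc κ / 2 * (lam * g ^ 2 / 2) ^ 2 ≤ κ / 2 * (L * y) ^ 2 := by gcongr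
        _ = L ^ 2 * (κ / 2 * y ^ 2) := by ring
        _ ≤ L ^ 2 * (A₁ * g ^ 3) := by gcongr
    have e2 : κ / 2 * (lam * g ^ 2 / 2) ^ 2 = (κ * lam ^ 2 * g / 8) * g ^ 3 := by ring
    rw [e2] at e1
    have e3 : L ^ 2 * (A₁ * g ^ 3) = (L ^ 2 * A₁) * g ^ 3 := by ring
    rw [e3] at e1
    have := le_of_mul_le_mul_right e1 (by positivity)
    linarith
  have h7 : g ≤ 8 * A₁ * L ^ 2 / (κ * lam ^ 2) := by
    rw [le_div_iff₀ (by positivity)]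
    linarith
  linarith

section core

variable {E : Type*} [NormedAddCommGroup E] [NormedSpace ℝ E]


/-- **The pointwise algebra** at the maximum. `A` the coefficients at the point, `A'` their
derivative, `ξ, B, D3` the derivatives of `v` of order 1, 2, 3, `η, ζ` the cutoff and its
derivative, `S2` the second derivative of `η²`. -/
lemma core1 {d : ℕ} {e : Fin d → E} {A : (E →L[ℝ] E →L[ℝ] ℝ) →L[ℝ] ℝ}
    {A' : E →L[ℝ] (E →L[ℝ] E →L[ℝ] ℝ) →L[ℝ] ℝ} {ξ : E →L[ℝ] ℝ} {B : E →L[ℝ] E →L[ℝ] ℝ}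
    {D3 : E →L[ℝ] E →L[ℝ] E →L[ℝ] ℝ} {lam L L' l κ E2 m₁ m₂ η : ℝ}
    {ζ : E →L[ℝ] ℝ} {S2 : E →L[ℝ] E →L[ℝ] ℝ}
    (hlam : 0 < lam) (hL : 0 < L) (hL' : 0 ≤ L') (hl : 0 ≤ l) (hκ : 0 < κ) (hm₁ : 0 ≤ m₁)
    (hm₂ : 0 ≤ m₂)
    (hA : ∀ χ : E →L[ℝ] ℝ, lam * ‖χ‖ ^ 2 ≤ A (χ.smulRight χ)) (hAL : ‖A‖ ≤ L) (hA' : ‖A'‖ ≤ L')
    (hE2 : ∑ k, ‖e k‖ ^ 2 ≤ E2)
    (hB : κ * ‖B‖ ^ 2 ≤ ∑ k, ‖B (e k)‖ ^ 2)
    (E0 : A B + A (ξ.smulRight ξ) = l)
    (E1 : ∀ x, A (D3 x) + A' x B + A (ξ.smulRight (B x)) + A ((B x).smulRight ξ)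
      + A' x (ξ.smulRight ξ) = 0)
    (hη : 0 < η) (hη1 : η ≤ 1) (hζ : ‖ζ‖ ≤ m₁) (hS2 : ‖S2‖ ≤ m₂)
    {Q : ℝ} (hQ : Q = ∑ k, ξ (e k) * ξ (e k))
    {DQ : E →L[ℝ] ℝ} (hDQ : DQ = ∑ k, (2 * ξ (e k)) • B (e k))
    {LQ : ℝ} (hLQ : LQ = ∑ k, (2 * ξ (e k) * A (D3 (e k)) + 2 * A ((B (e k)).smulRight (B (e k)))))
    (M1 : η ^ 2 • DQ + Q • ((2 * η) • ζ) = 0)
    (M2 : η ^ 2 * LQ + Q * A S2 + A (((2 * η) • ζ).smulRight DQ) + A (DQ.smulRight ((2 * η) • ζ)) ≤ 0) :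
    2 * lam * κ * (η ^ 2 * ‖B‖ ^ 2) ≤ 2 * (E2 * L') * (η ^ 2 * (‖ξ‖ * ‖B‖))
      + 2 * (E2 * L') * (η ^ 2 * ‖ξ‖ ^ 3) + 4 * (E2 * L * m₁) * (η * ‖ξ‖ ^ 3)
      + E2 * L * (m₂ + 8 * m₁ ^ 2) * ‖ξ‖ ^ 2 ∧ lam * ‖ξ‖ ^ 2 ≤ l + L * ‖B‖ := by
  have hE20 : 0 ≤ E2 := le_trans (Finset.sum_nonneg fun k _ => sq_nonneg _) hE2
  set q := ‖ξ‖ with hq
  set β := ‖B‖ with hβ
  have hq0 : 0 ≤ q := norm_nonneg _
  have hβ0 : 0 ≤ β := norm_nonneg _
  have hξk : ∀ k, |ξ (e k)| ≤ q * ‖e k‖ := fun k => ξ.le_opNorm _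
  have hAle : ∀ X : E →L[ℝ] E →L[ℝ] ℝ, |A X| ≤ L * ‖X‖ := fun X =>
    (A.le_opNorm X).trans (mul_le_mul_of_nonneg_right hAL (norm_nonneg _))
  have hQ0 : 0 ≤ Q := by rw [hQ]; exact Finset.sum_nonneg fun k _ => mul_self_nonneg _
  have hQle : Q ≤ E2 * q ^ 2 := by
    rw [hQ]
    calc ∑ k, ξ (e k) * ξ (e k) ≤ ∑ k, ‖e k‖ ^ 2 * q ^ 2 := by
          refine Finset.sum_le_sum fun k _ => ?_
          have h := hξk k
          have h2 : ξ (e k) * ξ (e k) = |ξ (e k)| ^ 2 := by rw [sq_abs]; ring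
          rw [h2]
          calc |ξ (e k)| ^ 2 ≤ (q * ‖e k‖) ^ 2 := by gcongr
            _ = _ := by ring
      _ = (∑ k, ‖e k‖ ^ 2) * q ^ 2 := by rw [Finset.sum_mul]
      _ ≤ _ := by gcongr
  -- the gradient of `Q`
  have hη2 : η ^ 2 ≠ 0 := by positivity
  have hDQ2 : DQ = (-(2 * Q / η)) • ζ := by
    have h1 : η ^ 2 • DQ = -(Q • ((2 * η) • ζ)) := eq_neg_of_add_eq_zero_left M1
    have h2 : DQ = (η ^ 2)⁻¹ • (η ^ 2 • DQ) := by rw [smul_smul, inv_mul_cancel₀ hη2, one_smul]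
    rw [h2, h1, smul_neg, smul_smul, smul_smul, ← neg_smul]
    congr 1
    field_simp
  -- terms
  have t1 : A (((2 * η) • ζ).smulRight DQ) = -(4 * Q) * A (ζ.smulRight ζ) := by
    have : ((2 * η) • ζ).smulRight DQ = (-(4 * Q)) • ζ.smulRight ζ := by
      rw [hDQ2]
      ext x y
      simp only [ContinuousLinearMap.smulRight_apply, smul_apply, smul_eq_mul]
      field_simp
      ring
    rw [this, map_smul, smul_eq_mul]
  have t2 : A (DQ.smulRight ((2 * η) • ζ)) = -(4 * Q) * A (ζ.smulRight ζ) := by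
    have : DQ.smulRight ((2 * η) • ζ) = (-(4 * Q)) • ζ.smulRight ζ := by
      rw [hDQ2]
      ext x y
      simp only [ContinuousLinearMap.smulRight_apply, smul_apply, smul_eq_mul]
      field_simp
      ring
    rw [this, map_smul, smul_eq_mul]
  have t3 : A (ξ.smulRight DQ) = -(2 * Q / η) * A (ξ.smulRight ζ) := by
    have : ξ.smulRight DQ = (-(2 * Q / η)) • ξ.smulRight ζ := by
      rw [hDQ2]
      ext x y
      simp only [ContinuousLinearMap.smulRight_apply, smul_apply, smul_eq_mul]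
      ring
    rw [this, map_smul, smul_eq_mul]
  have t4 : A (DQ.smulRight ξ) = -(2 * Q / η) * A (ζ.smulRight ξ) := by
    have : DQ.smulRight ξ = (-(2 * Q / η)) • ζ.smulRight ξ := by
      rw [hDQ2]
      ext x y
      simp only [ContinuousLinearMap.smulRight_apply, smul_apply, smul_eq_mul]
      ring
    rw [this, map_smul, smul_eq_mul]
  -- the sums
  set G : ℝ := ∑ k, A ((B (e k)).smulRight (B (e k))) with hG
  set T1 : ℝ := ∑ k, ξ (e k) * A' (e k) (ξ.smulRight ξ) with hT1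
  set T2 : ℝ := ∑ k, ξ (e k) * A' (e k) B with hT2
  have hsumR : ξ.smulRight DQ = ∑ k, (2 * ξ (e k)) • ξ.smulRight (B (e k)) := by
    rw [hDQ]
    ext x y
    simp only [ContinuousLinearMap.smulRight_apply, smul_apply, sum_apply, smul_eq_mul,
      Finset.mul_sum]
    exact Finset.sum_congr rfl fun k _ => by ring
  have hsumL : DQ.smulRight ξ = ∑ k, (2 * ξ (e k)) • (B (e k)).smulRight ξ := by
    rw [hDQ]
    ext x y
    simp only [ContinuousLinearMap.smulRight_apply, smul_apply, sum_apply, smul_eq_mul,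
      Finset.sum_mul]
    exact Finset.sum_congr rfl fun k _ => by ring
  have hLQ2 : LQ = 2 * G - 2 * T1 - 2 * T2 - A (ξ.smulRight DQ) - A (DQ.smulRight ξ) := by
    rw [hLQ, hsumR, hsumL, map_sum, map_sum, hG, hT1, hT2]
    simp only [map_smul, smul_eq_mul, Finset.mul_sum]
    rw [← Finset.sum_sub_distrib, ← Finset.sum_sub_distrib, ← Finset.sum_sub_distrib,
      ← Finset.sum_sub_distrib]
    refine Finset.sum_congr rfl fun k _ => ?_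
    have h := E1 (e k)
    linear_combination (2 * ξ (e k)) * h
  -- bounds
  have bG : lam * (κ * β ^ 2) ≤ G := by
    calc lam * (κ * β ^ 2) ≤ lam * ∑ k, ‖B (e k)‖ ^ 2 := by gcongr
      _ = ∑ k, lam * ‖B (e k)‖ ^ 2 := by rw [Finset.mul_sum]
      _ ≤ G := Finset.sum_le_sum fun k _ => hA _
  have hA'k : ∀ k (X : E →L[ℝ] E →L[ℝ] ℝ), |A' (e k) X| ≤ L' * ‖e k‖ * ‖X‖ := by
    intro k X
    refine ((A' (e k)).le_opNorm X).trans ?_
    refine mul_le_mul_of_nonneg_right ?_ (norm_nonneg _)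
    exact (A'.le_opNorm _).trans (mul_le_mul_of_nonneg_right hA' (norm_nonneg _))
  have bT : ∀ X : E →L[ℝ] E →L[ℝ] ℝ, |∑ k, ξ (e k) * A' (e k) X| ≤ E2 * L' * q * ‖X‖ := by
    intro X
    calc |∑ k, ξ (e k) * A' (e k) X| ≤ ∑ k, |ξ (e k) * A' (e k) X| :=
          Finset.abs_sum_le_sum_abs _ _
      _ ≤ ∑ k, ‖e k‖ ^ 2 * (L' * q * ‖X‖) := by
          refine Finset.sum_le_sum fun k _ => ?_
          rw [abs_mul]
          calc |ξ (e k)| * |A' (e k) X| ≤ (q * ‖e k‖) * (L' * ‖e k‖ * ‖X‖) :=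
                mul_le_mul (hξk k) (hA'k k X) (abs_nonneg _) (by positivity)
            _ = _ := by ring
      _ = (∑ k, ‖e k‖ ^ 2) * (L' * q * ‖X‖) := by rw [Finset.sum_mul]
      _ ≤ E2 * (L' * q * ‖X‖) := by gcongr
      _ = _ := by ring
  have bT1 : |T1| ≤ E2 * L' * q ^ 3 := by
    have h := bT (ξ.smulRight ξ)
    rw [ContinuousLinearMap.norm_smulRight_apply] at h
    calc |T1| ≤ E2 * L' * q * (q * q) := h
      _ = _ := by ring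
  have bT2 : |T2| ≤ E2 * L' * q * β := bT B
  have bζζ : |A (ζ.smulRight ζ)| ≤ L * m₁ ^ 2 := by
    have h := hAle (ζ.smulRight ζ)
    rw [ContinuousLinearMap.norm_smulRight_apply] at h
    calc |A (ζ.smulRight ζ)| ≤ L * (‖ζ‖ * ‖ζ‖) := h
      _ ≤ L * (m₁ * m₁) := by gcongr
      _ = _ := by ring
  have bξζ : |A (ξ.smulRight ζ)| ≤ L * q * m₁ := by
    have h := hAle (ξ.smulRight ζ)
    rw [ContinuousLinearMap.norm_smulRight_apply] at h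
    calc |A (ξ.smulRight ζ)| ≤ L * (‖ξ‖ * ‖ζ‖) := h
      _ ≤ L * (q * m₁) := by gcongr
      _ = _ := by ring
  have bζξ : |A (ζ.smulRight ξ)| ≤ L * q * m₁ := by
    have h := hAle (ζ.smulRight ξ)
    rw [ContinuousLinearMap.norm_smulRight_apply] at h
    calc |A (ζ.smulRight ξ)| ≤ L * (‖ζ‖ * ‖ξ‖) := h
      _ ≤ L * (m₁ * q) := by gcongr
      _ = _ := by ring
  have bS2 : |A S2| ≤ L * m₂ := (hAle S2).trans (by gcongr)
  -- assemble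
  rw [t1, t2, hLQ2, t3, t4] at M2
  have key : 2 * lam * κ * (η ^ 2 * β ^ 2) ≤ 2 * (E2 * L') * (η ^ 2 * (q * β))
      + 2 * (E2 * L') * (η ^ 2 * q ^ 3) + 4 * (E2 * L * m₁) * (η * q ^ 3)
      + E2 * L * (m₂ + 8 * m₁ ^ 2) * q ^ 2 := by
    have e1 : η ^ 2 * (2 * G - 2 * T1 - 2 * T2 - -(2 * Q / η) * A (ξ.smulRight ζ)
        - -(2 * Q / η) * A (ζ.smulRight ξ))
        = 2 * (η ^ 2 * G) - 2 * (η ^ 2 * T1) - 2 * (η ^ 2 * T2)
          + 2 * (Q * η) * (A (ξ.smulRight ζ) + A (ζ.smulRight ξ)) := by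
      field_simp
      ring
    rw [e1] at M2
    have f1 : η ^ 2 * (lam * (κ * β ^ 2)) ≤ η ^ 2 * G := by gcongr
    have f2 : η ^ 2 * T1 ≤ η ^ 2 * (E2 * L' * q ^ 3) := by
      have := le_abs_self T1
      gcongr
      linarith
    have f3 : η ^ 2 * T2 ≤ η ^ 2 * (E2 * L' * q * β) := by
      have := le_abs_self T2
      gcongr
      linarith
    have f4 : -(2 * (Q * η) * (A (ξ.smulRight ζ) + A (ζ.smulRight ξ)))
        ≤ 4 * (E2 * L * m₁) * (η * q ^ 3) := by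
      have g1 := neg_abs_le (A (ξ.smulRight ζ))
      have g2 := neg_abs_le (A (ζ.smulRight ξ))
      have g3 : -(A (ξ.smulRight ζ) + A (ζ.smulRight ξ)) ≤ 2 * (L * q * m₁) := by linarith
      calc -(2 * (Q * η) * (A (ξ.smulRight ζ) + A (ζ.smulRight ξ)))
          = 2 * (Q * η) * (-(A (ξ.smulRight ζ) + A (ζ.smulRight ξ))) := by ring
        _ ≤ 2 * (Q * η) * (2 * (L * q * m₁)) := by gcongr
        _ ≤ 2 * ((E2 * q ^ 2) * η) * (2 * (L * q * m₁)) := by gcongr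
        _ = _ := by ring
    have f5 : -(Q * A S2) + 8 * Q * A (ζ.smulRight ζ) ≤ E2 * L * (m₂ + 8 * m₁ ^ 2) * q ^ 2 := by
      have g1 := neg_abs_le (A S2)
      have g2 := le_abs_self (A (ζ.smulRight ζ))
      have g3 : -(A S2) + 8 * A (ζ.smulRight ζ) ≤ L * (m₂ + 8 * m₁ ^ 2) := by
        have : L * (m₂ + 8 * m₁ ^ 2) = L * m₂ + 8 * (L * m₁ ^ 2) := by ring
        linarith
      calc -(Q * A S2) + 8 * Q * A (ζ.smulRight ζ) = Q * (-(A S2) + 8 * A (ζ.smulRight ζ)) := by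
            ring
        _ ≤ Q * (L * (m₂ + 8 * m₁ ^ 2)) := by gcongr
        _ ≤ (E2 * q ^ 2) * (L * (m₂ + 8 * m₁ ^ 2)) := by gcongr
        _ = _ := by ring
    linarith
  refine ⟨key, ?_⟩
  have h2 := hA ξ
  have h3 := neg_abs_le (A B)
  have h4 := hAle B
  linarith

end core

/-- the final scalar step -/
lemma core2 {q β lam L L' l κ E2 m₁ m₂ η : ℝ}
    (hlam : 0 < lam) (hL : 0 < L) (hL' : 0 ≤ L') (hl : 0 ≤ l) (hκ : 0 < κ) (hm₁ : 0 ≤ m₁)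
    (hm₂ : 0 ≤ m₂) (hE20 : 0 ≤ E2) (hq0 : 0 ≤ q) (hβ0 : 0 ≤ β) (hη : 0 < η) (hη1 : η ≤ 1)
    (key : 2 * lam * κ * (η ^ 2 * β ^ 2) ≤ 2 * (E2 * L') * (η ^ 2 * (q * β))
      + 2 * (E2 * L') * (η ^ 2 * q ^ 3) + 4 * (E2 * L * m₁) * (η * q ^ 3)
      + E2 * L * (m₂ + 8 * m₁ ^ 2) * q ^ 2)
    (h1 : lam * q ^ 2 ≤ l + L * β) :
    η * q ≤ 1 + 2 * l / lam + 8 * (2 * (2 * E2 * L' + 4 * E2 * L * m₁ + E2 * L * (m₂ + 8 * m₁ ^ 2))
      + (2 * E2 * L' + 4 * E2 * L * m₁ + E2 * L * (m₂ + 8 * m₁ ^ 2)) ^ 2 / (2 * (2 * lam * κ)))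
      * L ^ 2 / ((2 * lam * κ) * lam ^ 2) := by
  -- the scalar inequality
  set AA : ℝ := 2 * E2 * L' + 4 * E2 * L * m₁ + E2 * L * (m₂ + 8 * m₁ ^ 2) with hAA
  have hAA0 : 0 ≤ AA := by positivity
  refine scalar_bound (y := η ^ 2 * β) hlam hL hl (by positivity : 0 < 2 * lam * κ) hAA0
    (by positivity) (by positivity) ?_ ?_
  · have k1 := mul_le_mul_of_nonneg_left key (sq_nonneg η)
    have a1 : 0 ≤ 2 * E2 * L' := by positivity
    have a2 : 0 ≤ 4 * E2 * L * m₁ := by positivity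
    have a3 : 0 ≤ E2 * L * (m₂ + 8 * m₁ ^ 2) := by positivity
    have c1 : 0 ≤ (η * q) ^ 3 := by positivity
    have c2 : 0 ≤ (η * q) * (η ^ 2 * β) := by positivity
    have c3 : 0 ≤ (η * q) ^ 2 := by positivity
    have r1 : 2 * (E2 * L') * (η ^ 2 * (η ^ 2 * (q * β))) ≤ 2 * E2 * L' * ((η * q) * (η ^ 2 * β)) := by
      calc 2 * (E2 * L') * (η ^ 2 * (η ^ 2 * (q * β)))
          = (2 * E2 * L' * ((η * q) * (η ^ 2 * β))) * η := by ring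
        _ ≤ (2 * E2 * L' * ((η * q) * (η ^ 2 * β))) * 1 := by gcongr
        _ = _ := mul_one _
    have r2 : 2 * (E2 * L') * (η ^ 2 * (η ^ 2 * q ^ 3)) ≤ 2 * E2 * L' * (η * q) ^ 3 := by
      calc 2 * (E2 * L') * (η ^ 2 * (η ^ 2 * q ^ 3)) = (2 * E2 * L' * (η * q) ^ 3) * η := by ring
        _ ≤ (2 * E2 * L' * (η * q) ^ 3) * 1 := by gcongr
        _ = _ := mul_one _
    have r3 : 4 * (E2 * L * m₁) * (η ^ 2 * (η * q ^ 3)) = 4 * E2 * L * m₁ * (η * q) ^ 3 := by ring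
    have r4 : η ^ 2 * (E2 * L * (m₂ + 8 * m₁ ^ 2) * q ^ 2)
        = E2 * L * (m₂ + 8 * m₁ ^ 2) * (η * q) ^ 2 := by ring
    have r5 : 2 * lam * κ * (η ^ 2 * β) ^ 2 = η ^ 2 * (2 * lam * κ * (η ^ 2 * β ^ 2)) := by ring
    have r6 : AA * ((η * q) ^ 3 + (η * q) * (η ^ 2 * β) + (η * q) ^ 2)
        = 2 * E2 * L' * ((η * q) ^ 3 + (η * q) * (η ^ 2 * β) + (η * q) ^ 2)
          + 4 * E2 * L * m₁ * ((η * q) ^ 3 + (η * q) * (η ^ 2 * β) + (η * q) ^ 2)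
          + E2 * L * (m₂ + 8 * m₁ ^ 2) * ((η * q) ^ 3 + (η * q) * (η ^ 2 * β) + (η * q) ^ 2) := by
      rw [hAA]; ring
    rw [r5, r6]
    have s1 := mul_nonneg a1 c3
    have s2 := mul_nonneg a2 c2
    have s3 := mul_nonneg a2 c3
    have s4 := mul_nonneg a3 c1
    have s5 := mul_nonneg a3 c2
    linarith
  · have h2 : η ^ 2 * (lam * q ^ 2) ≤ η ^ 2 * (l + L * β) := by gcongr
    have h3 : η ^ 2 * l ≤ l := by
      have : η ^ 2 ≤ 1 := pow_le_one₀ hη.le hη1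
      nlinarith
    calc lam * (η * q) ^ 2 = η ^ 2 * (lam * q ^ 2) := by ring
      _ ≤ η ^ 2 * (l + L * β) := h2
      _ = η ^ 2 * l + L * (η ^ 2 * β) := by ring
      _ ≤ l + L * (η ^ 2 * β) := by linarith


end Vale.Agent.P299.H588
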